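import Mathlib

/-!
# The one-coordinate inequality of (HC) (P331, note #19883)

No case distinction on regimes; all constants explicit.
-/

namespace Vale.Agent.P331.H901

/-- `(1+Y)^q - (c+Y)^q ≥ 1 - c^q`. -/
theorem pow_sub_ge (q : ℕ) (c Y : ℝ) (hc : 0 ≤ c) (hc1 : c ≤ 1) (hY : 0 ≤ Y) :
    1 - c ^ q ≤ (1 + Y) ^ q - (c + Y) ^ q := by
  induction q with
  | zero => simp
  | succ q ih =>
    have h1 : (1 + Y) ^ (q + 1) - (c + Y) ^ (q + 1)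
        = (1 + Y) * ((1 + Y) ^ q - (c + Y) ^ q) + (1 - c) * (c + Y) ^ q := by ring
    have hcq : c ^ q ≤ 1 := pow_le_one₀ hc hc1
    have h2 : c ^ q ≤ (c + Y) ^ q := pow_le_pow_left₀ hc (by linarith) q
    have h3 : (1 : ℝ) * (1 - c ^ q) ≤ (1 + Y) * ((1 + Y) ^ q - (c + Y) ^ q) :=
      mul_le_mul (by linarith) ih (by linarith) (by linarith)
    have h4 : (1 - c) * c ^ q ≤ (1 - c) * (c + Y) ^ q :=
      mul_le_mul_of_nonneg_left h2 (by linarith)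
    rw [h1, pow_succ]
    nlinarith [h3, h4]

/-- Comparison of the remainders. -/
theorem rem_le (q : ℕ) (c u : ℝ) (hc : 0 ≤ c) (hc1 : c ≤ 1) (hu : 0 ≤ u) :
    c ^ q * ((1 + (2 * u + u ^ 2)) ^ q - 1 - 2 * q * u)
      ≤ (1 + c * (2 * u + u ^ 2)) ^ q - 1 - 2 * q * c * u := by
  induction q with
  | zero => simp
  | succ q ih =>
    set h : ℝ := 2 * u + u ^ 2 with hh
    have hh0 : 0 ≤ h := by positivity
    have hh2 : 2 * u ≤ h := by nlinarith [sq_nonneg u]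
    have hA : 0 ≤ (1 + h) ^ q - 1 - 2 * q * u := by
      have := one_add_mul_le_pow (a := h) (by linarith) q
      have hq : (0 : ℝ) ≤ q := Nat.cast_nonneg q
      nlinarith [mul_le_mul_of_nonneg_left hh2 hq]
    have hcq0 : 0 ≤ c ^ q := pow_nonneg hc q
    have hcq1 : c ^ q ≤ 1 := pow_le_one₀ hc hc1
    have e1 : c ^ (q + 1) * ((1 + h) ^ q - 1 - 2 * q * u)
        ≤ (1 + c * h) ^ q - 1 - 2 * q * c * u := by
      refine le_trans ?_ ih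
      exact mul_le_mul_of_nonneg_right (pow_le_pow_of_le_one hc hc1 (Nat.le_succ q)) hA
    have key := pow_sub_ge q c (c * h) hc hc1 (by positivity)
    have e2 : 2 * u * (1 - c ^ q) ≤ h * ((1 + c * h) ^ q - (c + c * h) ^ q) :=
      mul_le_mul hh2 key (by linarith) hh0
    have e3 : (c + c * h) ^ q = c ^ q * (1 + h) ^ q := by
      rw [← mul_pow]; ring
    rw [e3] at e2
    have e4 : c * (2 * u * (1 - c ^ q))
        ≤ c * (h * ((1 + c * h) ^ q - c ^ q * (1 + h) ^ q)) :=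
      mul_le_mul_of_nonneg_left e2 hc
    have e5 : c ^ (q + 1) * ((1 + h) ^ (q + 1) - 1 - 2 * ((q + 1 : ℕ) : ℝ) * u)
        = c ^ (q + 1) * ((1 + h) ^ q - 1 - 2 * q * u)
          + c * (c ^ q * (h * (1 + h) ^ q) - 2 * u * c ^ q) := by
      push_cast; ring
    have e6 : (1 + c * h) ^ (q + 1) - 1 - 2 * ((q + 1 : ℕ) : ℝ) * c * u
        = ((1 + c * h) ^ q - 1 - 2 * q * c * u) + c * (h * (1 + c * h) ^ q - 2 * u) := by
      push_cast; ring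
    rw [e5, e6]
    nlinarith [e1, e4]

/-- Taylor, second order, upper bound. -/
theorem taylor_up (n : ℕ) (z : ℝ) (hz : 0 ≤ z) :
    (1 + z) ^ (n + 2) ≤ 1 + (n + 2) * z + (n + 2) * (n + 1) / 2 * (z ^ 2 * (1 + z) ^ n) := by
  induction n with
  | zero => norm_num; nlinarith
  | succ n ih =>
    have h1 : (1 : ℝ) ≤ (1 + z) ^ (n + 1) := one_le_pow₀ (by linarith)
    have hn : (0 : ℝ) ≤ n := Nat.cast_nonneg n
    have h2 : (1 + z) * (1 + z) ^ (n + 2)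
        ≤ (1 + z) * (1 + (n + 2) * z + (n + 2) * (n + 1) / 2 * (z ^ 2 * (1 + z) ^ n)) :=
      mul_le_mul_of_nonneg_left ih (by linarith)
    have h3 : ((n : ℝ) + 2) * z ^ 2 * 1 ≤ (n + 2) * z ^ 2 * (1 + z) ^ (n + 1) :=
      mul_le_mul_of_nonneg_left h1 (by positivity)
    have e1 : (1 + z) ^ (n + 1 + 2) = (1 + z) * (1 + z) ^ (n + 2) := by ring
    have e2 : (1 + z) * (1 + ((n : ℝ) + 2) * z + (n + 2) * (n + 1) / 2 * (z ^ 2 * (1 + z) ^ n))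
        = 1 + (n + 3) * z + (n + 2) * z ^ 2 * 1
          + (n + 2) * (n + 1) / 2 * (z ^ 2 * (1 + z) ^ (n + 1)) := by ring
    have e3 : 1 + (((n + 1 : ℕ) : ℝ) + 2) * z
        + (((n + 1 : ℕ) : ℝ) + 2) * (((n + 1 : ℕ) : ℝ) + 1) / 2 * (z ^ 2 * (1 + z) ^ (n + 1))
        = 1 + (n + 3) * z + (n + 2) * z ^ 2 * (1 + z) ^ (n + 1)
          + (n + 2) * (n + 1) / 2 * (z ^ 2 * (1 + z) ^ (n + 1)) := by
      push_cast; ring
    rw [e1, e3]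
    rw [e2] at h2
    linarith

/-- Bonferroni, `0 ≤ z ≤ 1`. -/
theorem taylor_dn (n : ℕ) (z : ℝ) (hz : 0 ≤ z) (hz1 : z ≤ 1) :
    (1 - z) ^ n ≤ 1 - n * z + n * (n - 1) / 2 * z ^ 2 := by
  induction n with
  | zero => simp
  | succ n ih =>
    have h2 : (1 - z) * (1 - z) ^ n ≤ (1 - z) * (1 - n * z + n * (n - 1) / 2 * z ^ 2) :=
      mul_le_mul_of_nonneg_left ih (by linarith)
    have hC : (0 : ℝ) ≤ (n : ℝ) * (n - 1) / 2 := by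
      rcases Nat.eq_zero_or_pos n with h | h
      · subst h; simp
      · have : (1 : ℝ) ≤ n := by exact_mod_cast h
        have : (0 : ℝ) ≤ (n : ℝ) - 1 := by linarith
        positivity
    have hz3 : 0 ≤ (n : ℝ) * (n - 1) / 2 * z ^ 3 := mul_nonneg hC (by positivity)
    have e1 : (1 - z) ^ (n + 1) = (1 - z) * (1 - z) ^ n := by ring
    rw [e1]
    push_cast
    nlinarith [h2, hz3]

/-- `(1+ρ)^m ≤ 1 + 2mρ` as long as `2mρ ≤ 1`. -/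
theorem pow_small (m : ℕ) (ρ : ℝ) (hρ : 0 ≤ ρ) (h : 2 * (m : ℝ) * ρ ≤ 1) :
    (1 + ρ) ^ m ≤ 1 + 2 * m * ρ := by
  induction m with
  | zero => simp
  | succ m ih =>
    have hm : (0 : ℝ) ≤ m := Nat.cast_nonneg m
    have h' : 2 * (m : ℝ) * ρ ≤ 1 := by
      push_cast at h; nlinarith
    have := ih h'
    have h2 : (1 + ρ) * (1 + ρ) ^ m ≤ (1 + ρ) * (1 + 2 * m * ρ) :=
      mul_le_mul_of_nonneg_left this (by linarith)
    have e1 : (1 + ρ) ^ (m + 1) = (1 + ρ) * (1 + ρ) ^ m := by ring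
    rw [e1]
    push_cast
    nlinarith [mul_le_mul_of_nonneg_right h' hρ]

/-- `(A+B)^q ≥ A^q + q B`, `A ≥ 1`. -/
theorem add_pow_ge (q : ℕ) (A B : ℝ) (hA : 1 ≤ A) (hB : 0 ≤ B) :
    A ^ q + q * B ≤ (A + B) ^ q := by
  induction q with
  | zero => simp
  | succ q ih =>
    have h1 : (1 : ℝ) ≤ A ^ q := one_le_pow₀ hA
    have hq : (0 : ℝ) ≤ q := Nat.cast_nonneg q
    have h2 : (A + B) * (A ^ q + q * B) ≤ (A + B) * (A + B) ^ q :=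
      mul_le_mul_of_nonneg_left ih (by linarith)
    have e1 : (A + B) ^ (q + 1) = (A + B) * (A + B) ^ q := by ring
    rw [e1]
    have h3 : B * 1 ≤ B * A ^ q := mul_le_mul_of_nonneg_left h1 hB
    have h4 : (q : ℝ) * B * 1 ≤ q * B * A := mul_le_mul_of_nonneg_left hA (by positivity)
    have h5 : 0 ≤ (q : ℝ) * B * B := by positivity
    push_cast
    have e2 : A ^ (q + 1) = A * A ^ q := by ring
    rw [e2]
    nlinarith

/-- `n (u - y) ≤ (1+u)^n - (1+y)^n`. -/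
theorem pow_diff_ge (n : ℕ) (u y : ℝ) (hy : 0 ≤ y) (hyu : y ≤ u) :
    n * (u - y) ≤ (1 + u) ^ n - (1 + y) ^ n := by
  induction n with
  | zero => simp
  | succ n ih =>
    have h1 : (1 : ℝ) ≤ (1 + y) ^ n := one_le_pow₀ (by linarith)
    have h0 : 0 ≤ (n : ℝ) * (u - y) := mul_nonneg (Nat.cast_nonneg n) (by linarith)
    have e1 : (1 + u) ^ (n + 1) - (1 + y) ^ (n + 1)
        = (1 + u) * ((1 + u) ^ n - (1 + y) ^ n) + (u - y) * (1 + y) ^ n := by ring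
    have h2 : 1 * ((n : ℝ) * (u - y)) ≤ (1 + u) * ((1 + u) ^ n - (1 + y) ^ n) :=
      mul_le_mul (by linarith) ih h0 (by linarith)
    have h3 : (u - y) * 1 ≤ (u - y) * (1 + y) ^ n :=
      mul_le_mul_of_nonneg_left h1 (by linarith)
    rw [e1]
    push_cast
    linarith

/-- `M ≥ Y (1+Y)^q`. -/
theorem hc_MY (q : ℕ) (Θ u : ℝ) (hΘ0 : 0 < Θ) (hu : 0 ≤ u) :
    Θ * u ^ 2 * (1 + Θ * u ^ 2) ^ q
      ≤ (1 + Θ * (2 * u + u ^ 2)) ^ (q + 1) - 1 - 2 * ((q : ℝ) + 1) * Θ * u := by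
  have hY0 : 0 ≤ Θ * u ^ 2 := by positivity
  have g1 := add_pow_ge (q + 1) (1 + Θ * u ^ 2) (2 * Θ * u) (by linarith) (by positivity)
  push_cast at g1
  have g2 : (1 + Θ * u ^ 2 + 2 * Θ * u) = 1 + Θ * (2 * u + u ^ 2) := by ring
  rw [g2] at g1
  have g3 : (1 + Θ * u ^ 2) ^ (q + 1)
      = (1 + Θ * u ^ 2) ^ q + Θ * u ^ 2 * (1 + Θ * u ^ 2) ^ q := by ring
  have g4 : (1 : ℝ) ≤ (1 + Θ * u ^ 2) ^ q := one_le_pow₀ (by linarith)
  rw [g3] at g1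
  have g5 : ((q : ℝ) + 1) * (2 * Θ * u) = 2 * ((q : ℝ) + 1) * Θ * u := by ring
  rw [g5] at g1
  linarith

/-- the `s`-term -/
theorem hc_s (q : ℕ) (s t Θ u : ℝ) (hs : 0 ≤ s) (ht : 0 ≤ t) (hΘ0 : 0 < Θ)
    (h2 : 16 * ((q : ℝ) + 1) ^ 2 * t ^ 2 ≤ Θ) (hs1 : s ≤ 1) (hu : 0 ≤ u) :
    s * ((1 + t * u) ^ (2 * (q + 1)) - 1 - 2 * ((q : ℝ) + 1) * (t * u))
      ≤ ((1 + Θ * (2 * u + u ^ 2)) ^ (q + 1) - 1 - 2 * ((q : ℝ) + 1) * Θ * u) / 4 := by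
  have hq : (0 : ℝ) ≤ q := Nat.cast_nonneg q
  have hMY := hc_MY q Θ u hΘ0 hu
  generalize (1 + Θ * (2 * u + u ^ 2)) ^ (q + 1) - 1 - 2 * ((q : ℝ) + 1) * Θ * u = M at hMY ⊢
  obtain ⟨ρ, hρ⟩ : ∃ ρ : ℝ, ρ = t ^ 2 / Θ := ⟨_, rfl⟩
  have hρ0 : 0 ≤ ρ := by rw [hρ]; positivity
  have hρΘ : ρ * Θ = t ^ 2 := by rw [hρ]; field_simp
  have hρs : 16 * ((q : ℝ) + 1) ^ 2 * ρ ≤ 1 := by
    rw [hρ, ← mul_div_assoc, div_le_one hΘ0]; exact h2
  have htay := taylor_up (2 * q) (t * u) (by positivity)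
  have e1 : (1 + t * u) ^ (2 * (q + 1)) = (1 + t * u) ^ (2 * q + 2) := by ring_nf
  have hsq2 : (1 + t * u) ^ 2 ≤ (1 + ρ) * (1 + Θ * u ^ 2) := by
    have hk : 2 * (t * u) ≤ Θ * u ^ 2 + ρ := by
      have hsqn : 0 ≤ (Θ * u - t) ^ 2 := sq_nonneg _
      have h0 : 0 ≤ (Θ * u ^ 2 + ρ - 2 * (t * u)) * Θ := by
        have h00 : (Θ * u ^ 2 + ρ - 2 * (t * u)) * Θ = (Θ * u - t) ^ 2 := by
          linear_combination hρΘ
        rw [h00]; exact hsqn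
      have h01 := nonneg_of_mul_nonneg_left h0 hΘ0
      linarith
    have h02 : ρ * (Θ * u ^ 2) = t ^ 2 * u ^ 2 := by rw [← mul_assoc, hρΘ]
    have h03 : (1 + t * u) ^ 2 = 1 + 2 * (t * u) + t ^ 2 * u ^ 2 := by ring
    have h04 : (1 + ρ) * (1 + Θ * u ^ 2) = 1 + (Θ * u ^ 2 + ρ) + ρ * (Θ * u ^ 2) := by ring
    rw [h03, h04, h02]
    linarith
  have hpw : (1 + t * u) ^ (2 * q) ≤ (1 + ρ) ^ q * (1 + Θ * u ^ 2) ^ q := by
    rw [pow_mul, ← mul_pow]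
    exact pow_le_pow_left₀ (by positivity) hsq2 q
  have hsm : (1 + ρ) ^ q ≤ 2 := by
    have h' : 2 * (q : ℝ) * ρ ≤ 1 := by
      have : 2 * (q : ℝ) * ρ ≤ 16 * ((q : ℝ) + 1) ^ 2 * ρ :=
        mul_le_mul_of_nonneg_right (by nlinarith) hρ0
      linarith
    have := pow_small q ρ hρ0 h'
    linarith
  have hY0 : 0 ≤ Θ * u ^ 2 := by positivity
  obtain ⟨Y, hY⟩ : ∃ Y : ℝ, Y = Θ * u ^ 2 := ⟨_, rfl⟩
  rw [← hY] at hMY hpw hY0
  obtain ⟨Z, hZ⟩ : ∃ Z : ℝ, Z = Y * (1 + Y) ^ q := ⟨_, rfl⟩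
  have hZ0 : 0 ≤ Z := by rw [hZ]; positivity
  rw [← hZ] at hMY
  have hlast : ((q : ℝ) + 1) * (2 * q + 1) * ((t * u) ^ 2 * (1 + t * u) ^ (2 * q))
      ≤ Z / 4 := by
    have hP : 0 ≤ (1 + Y) ^ q := by positivity
    have g1 : (1 + t * u) ^ (2 * q) ≤ 2 * (1 + Y) ^ q :=
      le_trans hpw (mul_le_mul_of_nonneg_right hsm hP)
    have g2 : (t * u) ^ 2 = ρ * Y := by rw [mul_pow, ← hρΘ, hY]; ring
    have g3 : (t * u) ^ 2 * (1 + t * u) ^ (2 * q) ≤ ρ * Y * (2 * (1 + Y) ^ q) := by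
      rw [g2]; exact mul_le_mul_of_nonneg_left g1 (by positivity)
    have g4 : ((q : ℝ) + 1) * (2 * q + 1) * ((t * u) ^ 2 * (1 + t * u) ^ (2 * q))
        ≤ ((q : ℝ) + 1) * (2 * q + 1) * (ρ * Y * (2 * (1 + Y) ^ q)) :=
      mul_le_mul_of_nonneg_left g3 (by positivity)
    have g5 : ((q : ℝ) + 1) * (2 * q + 1) * ρ * 8 ≤ 1 := by
      have : ((q : ℝ) + 1) * (2 * q + 1) * ρ * 8 ≤ 16 * ((q : ℝ) + 1) ^ 2 * ρ := by
        nlinarith [mul_nonneg hq hρ0]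
      linarith
    have g7 : ((q : ℝ) + 1) * (2 * q + 1) * ρ * 8 * Z ≤ 1 * Z :=
      mul_le_mul_of_nonneg_right g5 hZ0
    have g8 : ((q : ℝ) + 1) * (2 * q + 1) * (ρ * Y * (2 * (1 + Y) ^ q))
        = (((q : ℝ) + 1) * (2 * q + 1) * ρ * 8 * Z) / 4 := by rw [hZ]; ring
    rw [g8] at g4
    linarith
  have hs0 : s * ((1 + t * u) ^ (2 * (q + 1)) - 1 - 2 * ((q : ℝ) + 1) * (t * u))
      ≤ s * (Z / 4) := by
    apply mul_le_mul_of_nonneg_left _ hs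
    rw [e1]
    push_cast at htay
    have e3 : (2 * (q : ℝ) + 2) * (2 * q + 1) / 2 = ((q : ℝ) + 1) * (2 * q + 1) := by ring
    rw [e3] at htay
    have e4 : (2 * (q : ℝ) + 2) * (t * u) = 2 * ((q : ℝ) + 1) * (t * u) := by ring
    rw [e4] at htay
    linarith
  have hs2 : s * (Z / 4) ≤ 1 * (Z / 4) :=
    mul_le_mul_of_nonneg_right hs1 (by linarith)
  linarith

/-- the `p`-term -/
theorem hc_p (q : ℕ) (p κ Θ u X M : ℝ) (hp : 0 ≤ p) (hκ : 0 ≤ κ)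
    (hΘ0 : 0 < Θ) (h4 : 8 * p ≤ Θ ^ (q + 1)) (h5 : 4 * p ≤ κ * Θ) (hu : 0 ≤ u)
    (hX : (1 + u) ^ (2 * (q + 1)) = X + 1 + 2 * ((q : ℝ) + 1) * u) (hX0 : 0 ≤ X) (hM0 : 0 ≤ M)
    (hXM : Θ ^ (q + 1) * X ≤ M) (hMu : ((q : ℝ) + 1) * (Θ * u ^ 2) ≤ M) :
    p * ((max 1 ((1 - κ) * (1 + u))) ^ (2 * (q + 1)) - 1) ≤ M / 4 := by
  have hq : (0 : ℝ) ≤ q := Nat.cast_nonneg q
  rcases le_total ((1 - κ) * (1 + u)) 1 with hle | hge
  · rw [max_eq_left hle]; simp; linarith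
  · rw [max_eq_right hge]
    obtain ⟨y, hy⟩ : ∃ y : ℝ, y = (1 - κ) * (1 + u) - 1 := ⟨_, rfl⟩
    have hy0 : 0 ≤ y := by rw [hy]; linarith
    have hyu : y ≤ u - κ := by
      rw [hy]; nlinarith [mul_nonneg hκ hu]
    have hyu' : y ≤ u := by linarith
    have e1 : (1 - κ) * (1 + u) = 1 + y := by rw [hy]; ring
    rw [e1]
    have g1 := pow_diff_ge (2 * (q + 1)) u y hy0 hyu'
    rw [hX] at g1
    push_cast at g1
    have g2 : (1 + y) ^ (2 * (q + 1)) - 1 ≤ X + 2 * ((q : ℝ) + 1) * y := by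
      linarith
    have g3 : p * ((1 + y) ^ (2 * (q + 1)) - 1) ≤ p * (X + 2 * ((q : ℝ) + 1) * y) :=
      mul_le_mul_of_nonneg_left g2 hp
    have g4 : 8 * p * X ≤ Θ ^ (q + 1) * X := mul_le_mul_of_nonneg_right h4 hX0
    have huκ : 0 ≤ u - κ := by linarith
    have g5 : p * y ≤ p * (u - κ) := mul_le_mul_of_nonneg_left hyu hp
    have g6 : 4 * p * (u - κ) ≤ κ * Θ * (u - κ) := mul_le_mul_of_nonneg_right h5 huκ
    have g7 : 4 * (κ * (u - κ)) ≤ u ^ 2 := by nlinarith [sq_nonneg (u - 2 * κ)]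
    have g7' : Θ * (4 * (κ * (u - κ))) ≤ Θ * u ^ 2 := mul_le_mul_of_nonneg_left g7 hΘ0.le
    have g9 : 16 * (p * y) ≤ Θ * u ^ 2 := by linarith
    have g10 : ((q : ℝ) + 1) * (16 * (p * y)) ≤ ((q : ℝ) + 1) * (Θ * u ^ 2) :=
      mul_le_mul_of_nonneg_left g9 (show (0 : ℝ) ≤ q + 1 by linarith)
    have g11 : p * (X + 2 * ((q : ℝ) + 1) * y)
        = (8 * p * X) / 8 + (((q : ℝ) + 1) * (16 * (p * y))) / 8 := by ring
    rw [g11] at g3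
    linarith

section

variable (q : ℕ) (x s t p κ Θ : ℝ)

/-- The case `a = 1`, `b = 1 + u`, `u ≥ 0`. -/
theorem hc_up (_hx : 0 ≤ x) (hs : 0 ≤ s) (ht : 0 ≤ t) (hp : 0 ≤ p) (hκ : 0 ≤ κ)
    (hΘ : Θ = x + s * t) (hΘ0 : 0 < Θ) (hΘ1 : Θ ≤ 1)
    (h1 : 4 * x ≤ Θ ^ (q + 1)) (h2 : 16 * ((q : ℝ) + 1) ^ 2 * t ^ 2 ≤ Θ)
    (h4 : 8 * p ≤ Θ ^ (q + 1)) (h5 : 4 * p ≤ κ * Θ) (hs1 : s ≤ 1)
    (u : ℝ) (hu : 0 ≤ u) :
    (1 - x - s - p) + x * (1 + u) ^ (2 * (q + 1)) + s * (1 + t * u) ^ (2 * (q + 1))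
        + p * (max 1 ((1 - κ) * (1 + u))) ^ (2 * (q + 1))
      ≤ (1 + Θ * (2 * u + u ^ 2)) ^ (q + 1) := by
  have hq : (0 : ℝ) ≤ q := Nat.cast_nonneg q
  have hh0 : 0 ≤ 2 * u + u ^ 2 := by positivity
  obtain ⟨X, hX⟩ : ∃ X : ℝ, X = (1 + (2 * u + u ^ 2)) ^ (q + 1) - 1 - 2 * ((q : ℝ) + 1) * u :=
    ⟨_, rfl⟩
  obtain ⟨M, hM⟩ : ∃ M : ℝ,
      M = (1 + Θ * (2 * u + u ^ 2)) ^ (q + 1) - 1 - 2 * ((q : ℝ) + 1) * Θ * u := ⟨_, rfl⟩
  have hsq : (1 + u) ^ (2 * (q + 1)) = X + 1 + 2 * ((q : ℝ) + 1) * u := by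
    have e : (1 + u) ^ (2 * (q + 1)) = (1 + (2 * u + u ^ 2)) ^ (q + 1) := by
      rw [pow_mul]; congr 1; ring
    rw [e, hX]; ring
  have hX0 : 0 ≤ X := by
    have h := one_add_mul_le_pow (a := 2 * u + u ^ 2) (by linarith) (q + 1)
    push_cast at h
    have h2u : 2 * u ≤ 2 * u + u ^ 2 := by nlinarith [sq_nonneg u]
    have h' := mul_le_mul_of_nonneg_left h2u (show (0 : ℝ) ≤ q + 1 by linarith)
    rw [hX]; linarith
  have hXM : Θ ^ (q + 1) * X ≤ M := by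
    have h := rem_le (q + 1) Θ u hΘ0.le hΘ1 hu
    push_cast at h
    rw [hX, hM]
    exact h
  have hM0 : 0 ≤ M := le_trans (by positivity) hXM
  have hMu : ((q : ℝ) + 1) * (Θ * u ^ 2) ≤ M := by
    have h := one_add_mul_le_pow (a := Θ * (2 * u + u ^ 2))
      (by nlinarith [mul_nonneg hΘ0.le hh0]) (q + 1)
    push_cast at h
    rw [hM]
    linarith
  have tx : x * X ≤ M / 4 := by
    have h : 4 * x * X ≤ Θ ^ (q + 1) * X := mul_le_mul_of_nonneg_right h1 hX0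
    linarith
  have ts := hc_s q s t Θ u hs ht hΘ0 h2 hs1 hu
  rw [← hM] at ts
  have tp := hc_p q p κ Θ u X M hp hκ hΘ0 h4 h5 hu hsq hX0 hM0 hXM hMu
  have e1 : (1 + Θ * (2 * u + u ^ 2)) ^ (q + 1) = 1 + 2 * ((q : ℝ) + 1) * Θ * u + M := by
    rw [hM]; ring
  rw [e1, hsq]
  have e3 : 2 * ((q : ℝ) + 1) * Θ * u
      = 2 * ((q : ℝ) + 1) * (x * u) + 2 * ((q : ℝ) + 1) * (s * (t * u)) := by rw [hΘ]; ring
  rw [e3]
  generalize (1 + t * u) ^ (2 * (q + 1)) = S at ts ⊢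
  generalize (max 1 ((1 - κ) * (1 + u))) ^ (2 * (q + 1)) = Q at tp ⊢
  linarith

/-- The case `a = 1`, `b = 1 - c`. -/
theorem hc_dn (hx : 0 ≤ x) (hs : 0 ≤ s) (ht : 0 ≤ t) (hκ : 0 ≤ κ)
    (hΘ : Θ = x + s * t) (hΘ0 : 0 < Θ) (hΘ1 : Θ ≤ 1)
    (h2 : 16 * ((q : ℝ) + 1) ^ 2 * t ^ 2 ≤ Θ) (h3 : 4 * ((q : ℝ) + 1) * x ≤ Θ)
    (c : ℝ) (hc : 0 ≤ c) (hc1 : c ≤ 1) :
    (1 - x - s - p) + x * (1 - c) ^ (2 * (q + 1)) + s * (1 - t * c) ^ (2 * (q + 1))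
        + p * (max 1 ((1 - κ) * (1 - c))) ^ (2 * (q + 1))
      ≤ (1 - Θ * (2 * c - c ^ 2)) ^ (q + 1) := by
  have hq : (0 : ℝ) ≤ q := Nat.cast_nonneg q
  have hmax : max 1 ((1 - κ) * (1 - c)) = 1 := by
    apply max_eq_left
    nlinarith
  rw [hmax, one_pow, mul_one]
  have h4t : 4 * ((q : ℝ) + 1) * t ≤ 1 := by
    have hh : (4 * ((q : ℝ) + 1) * t) ^ 2 ≤ 1 ^ 2 := by nlinarith
    exact le_of_sq_le_sq hh (by norm_num)
  have ht1 : t ≤ 1 := by nlinarith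
  have htc1 : t * c ≤ 1 := by nlinarith
  have g1 := taylor_dn (2 * (q + 1)) c hc hc1
  have g2 := taylor_dn (2 * (q + 1)) (t * c) (by positivity) htc1
  push_cast at g1 g2
  have g3 : 1 + ((q : ℝ) + 1) * (-(Θ * (2 * c - c ^ 2)))
      ≤ (1 + (-(Θ * (2 * c - c ^ 2)))) ^ (q + 1) := by
    have hcc : 2 * c - c ^ 2 ≤ 1 := by nlinarith [sq_nonneg (1 - c)]
    have hcc0 : 0 ≤ 2 * c - c ^ 2 := by nlinarith
    have : Θ * (2 * c - c ^ 2) ≤ 1 := by nlinarith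
    have := one_add_mul_le_pow (a := -(Θ * (2 * c - c ^ 2))) (by linarith) (q + 1)
    push_cast at this
    exact this
  have e0 : (1 - Θ * (2 * c - c ^ 2)) = (1 + (-(Θ * (2 * c - c ^ 2)))) := by ring
  rw [e0]
  refine le_trans ?_ g3
  have gx := mul_le_mul_of_nonneg_left g1 hx
  have gs := mul_le_mul_of_nonneg_left g2 hs
  -- (2q+1)(x + s t²) ≤ Θ
  have k1 : 2 * ((q : ℝ) + 1) * (s * t ^ 2) ≤ s * t / 2 := by
    have : s * t * (4 * ((q : ℝ) + 1) * t) ≤ s * t * 1 :=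
      mul_le_mul_of_nonneg_left h4t (by positivity)
    nlinarith
  have k2 : s * t ≤ Θ := by rw [hΘ]; linarith
  have k3 : (2 * (q : ℝ) + 1) * (x + s * t ^ 2) ≤ Θ := by
    have : 0 ≤ s * t ^ 2 := by positivity
    nlinarith
  have k4 : ((q : ℝ) + 1) * ((2 * (q : ℝ) + 1) * (x + s * t ^ 2)) * c ^ 2
      ≤ ((q : ℝ) + 1) * Θ * c ^ 2 := by
    apply mul_le_mul_of_nonneg_right _ (sq_nonneg c)
    exact mul_le_mul_of_nonneg_left k3 (by linarith)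
  have e1 : 2 * ((q : ℝ) + 1) * (x * c) + 2 * ((q : ℝ) + 1) * (s * (t * c))
      = 2 * ((q : ℝ) + 1) * Θ * c := by rw [hΘ]; ring
  nlinarith [gx, gs, k4, e1]

/-- **The one-coordinate inequality of (HC).**  `θ = 1 - κ`. -/
theorem hc_scalar (hx : 0 ≤ x) (hs : 0 ≤ s) (ht : 0 ≤ t) (hp : 0 ≤ p) (hκ : 0 ≤ κ)
    (hκ1 : κ ≤ 1) (hΘ : Θ = x + s * t) (hΘ0 : 0 < Θ) (hΘ1 : Θ ≤ 1)
    (h1 : 4 * x ≤ Θ ^ (q + 1)) (h2 : 16 * ((q : ℝ) + 1) ^ 2 * t ^ 2 ≤ Θ)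
    (h3 : 4 * ((q : ℝ) + 1) * x ≤ Θ)
    (h4 : 8 * p ≤ Θ ^ (q + 1)) (h5 : 4 * p ≤ κ * Θ) (ho : 0 ≤ 1 - x - s - p)
    (a b : ℝ) (ha : 0 ≤ a) (hb : 0 ≤ b) :
    (1 - x - s - p) * a ^ (2 * (q + 1)) + x * b ^ (2 * (q + 1))
        + s * ((1 - t) * a + t * b) ^ (2 * (q + 1))
        + p * (max a ((1 - κ) * b)) ^ (2 * (q + 1))
      ≤ ((1 - Θ) * a ^ 2 + Θ * b ^ 2) ^ (q + 1) := by
  have hs1 : s ≤ 1 := by linarith
  rcases eq_or_lt_of_le ha with h0 | hapos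
  · -- a = 0
    subst h0
    have hmax : max 0 ((1 - κ) * b) = (1 - κ) * b :=
      max_eq_right (mul_nonneg (by linarith) hb)
    rw [hmax]
    have hne : 2 * (q + 1) ≠ 0 := by omega
    have e1 : (0 : ℝ) ^ (2 * (q + 1)) = 0 := zero_pow hne
    have hB : 0 ≤ b ^ (2 * (q + 1)) := by positivity
    have e2 : ((1 - t) * 0 + t * b) ^ (2 * (q + 1)) = (t ^ 2) ^ (q + 1) * b ^ (2 * (q + 1)) := by
      rw [mul_zero, zero_add, mul_pow, pow_mul]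
    have e3 : ((1 - κ) * b) ^ (2 * (q + 1)) ≤ b ^ (2 * (q + 1)) := by
      apply pow_le_pow_left₀ (mul_nonneg (by linarith) hb)
      nlinarith
    have e4 : ((1 - Θ) * 0 ^ 2 + Θ * b ^ 2) ^ (q + 1) = Θ ^ (q + 1) * b ^ (2 * (q + 1)) := by
      rw [pow_mul, ← mul_pow]; congr 1; ring
    have ht2 : (t ^ 2) ^ (q + 1) ≤ (Θ / 16) ^ (q + 1) := by
      apply pow_le_pow_left₀ (by positivity)
      have hq : (0 : ℝ) ≤ q := Nat.cast_nonneg q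
      nlinarith [sq_nonneg t, mul_nonneg hq (sq_nonneg t),
        mul_nonneg (mul_nonneg hq hq) (sq_nonneg t)]
    have ht3 : (Θ / 16) ^ (q + 1) ≤ Θ ^ (q + 1) / 16 := by
      rw [div_pow]
      apply div_le_div_of_nonneg_left (by positivity) (by norm_num)
      calc (16 : ℝ) = 16 ^ 1 := by norm_num
        _ ≤ 16 ^ (q + 1) := pow_le_pow_right₀ (by norm_num) (by omega)
    rw [e1, e2, e4]
    have ht4 : s * (t ^ 2) ^ (q + 1) ≤ Θ ^ (q + 1) / 16 := by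
      have : s * (t ^ 2) ^ (q + 1) ≤ 1 * (t ^ 2) ^ (q + 1) :=
        mul_le_mul_of_nonneg_right hs1 (by positivity)
      linarith
    have k1 : p * ((1 - κ) * b) ^ (2 * (q + 1)) ≤ p * b ^ (2 * (q + 1)) :=
      mul_le_mul_of_nonneg_left e3 hp
    have hΘq : 0 ≤ Θ ^ (q + 1) := by positivity
    have k2 : (x + s * (t ^ 2) ^ (q + 1) + p) * b ^ (2 * (q + 1))
        ≤ Θ ^ (q + 1) * b ^ (2 * (q + 1)) := by
      apply mul_le_mul_of_nonneg_right _ hB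
      linarith
    nlinarith [k1, k2]
  · -- a > 0, scale
    obtain ⟨r, hr, hr0⟩ : ∃ r : ℝ, b = a * r ∧ 0 ≤ r :=
      ⟨b / a, by field_simp, by positivity⟩
    subst hr
    have hmax : max a ((1 - κ) * (a * r)) = a * max 1 ((1 - κ) * r) := by
      rw [mul_max_of_nonneg _ _ ha]; congr 1 <;> ring
    have e1 : ((1 - t) * a + t * (a * r)) = a * (1 - t + t * r) := by ring
    have e2 : ((1 - Θ) * a ^ 2 + Θ * (a * r) ^ 2) ^ (q + 1)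
        = a ^ (2 * (q + 1)) * (1 - Θ + Θ * r ^ 2) ^ (q + 1) := by
      rw [pow_mul, ← mul_pow]; congr 1; ring
    rw [hmax, e1, e2, mul_pow, mul_pow, mul_pow]
    have hA : 0 ≤ a ^ (2 * (q + 1)) := by positivity
    have key : (1 - x - s - p) + x * r ^ (2 * (q + 1)) + s * (1 - t + t * r) ^ (2 * (q + 1))
        + p * (max 1 ((1 - κ) * r)) ^ (2 * (q + 1)) ≤ (1 - Θ + Θ * r ^ 2) ^ (q + 1) := by
      rcases le_total 1 r with h1r | hr1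
      · have := hc_up q x s t p κ Θ hx hs ht hp hκ hΘ hΘ0 hΘ1 h1 h2 h4 h5 hs1 (r - 1)
          (by linarith)
        have f1 : (1 : ℝ) + (r - 1) = r := by ring
        have f2 : 1 + t * (r - 1) = 1 - t + t * r := by ring
        have f3 : 1 + Θ * (2 * (r - 1) + (r - 1) ^ 2) = 1 - Θ + Θ * r ^ 2 := by ring
        rw [f1, f2, f3] at this
        exact this
      · have := hc_dn q x s t p κ Θ hx hs ht hκ hΘ hΘ0 hΘ1 h2 h3 (1 - r)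
          (by linarith) (by linarith)
        have f1 : (1 : ℝ) - (1 - r) = r := by ring
        have f2 : 1 - t * (1 - r) = 1 - t + t * r := by ring
        have f3 : 1 - Θ * (2 * (1 - r) - (1 - r) ^ 2) = 1 - Θ + Θ * r ^ 2 := by ring
        rw [f1, f2, f3] at this
        exact this
    have := mul_le_mul_of_nonneg_left key hA
    nlinarith [this]

end

end Vale.Agent.P331.H901
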